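import Vale.Agent.P181.H303.Spec2

set_option autoImplicit false

open scoped TensorProduct

namespace Vale.Agent.P181.H877

open Vale.Agent.P181 Vale.Agent.P181.H280 Vale.Agent.P181.H303

theorem rowNZ : RowNZ := by
  intro a b n l hl
  by_contra hcon
  push Not at hcon
  apply hl
  apply elOf_eq_zero
  intro P hP
  refine multilinear_zero_of_span (formOf l)
    ((fun ζ => ζ ^ b) '' (linS (n + 1) : Set (MvPolynomial (Fin (n + 1)) ℂ))) ?_ P
    (fun i => pow_le_span_pow _ _ (hP i))
  intro w hw
  choose ζ hζ hw' using hw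
  have h1 : ∀ i, ∃ u : EE (n + 1), lin u = ζ i := by
    intro i
    obtain ⟨c, hc⟩ := (Submodule.mem_span_range_iff_exists_fun ℂ).1 (hζ i)
    exact ⟨WithLp.toLp 2 c, hc⟩
  choose u hu using h1
  have h2 : w = fun i => lin (u i) ^ b := by
    funext i
    rw [hu i]
    exact (hw' i).symm
  rw [h2]
  exact hcon u

end Vale.Agent.P181.H877
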